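import Vale.Agent.P290.H345.LatticeBasic

/-!
# Theorem A: a class of fibre degree two and index two
-/

namespace Vale.Agent.P290.H345

namespace EllLat

variable {H : Type*} [AddCommGroup H] {S : Type*} {J : S → Type*} [∀ s, Fintype (J s)]
variable (L : EllLat H S J)

theorem exists_c : ∃ c, L.B c L.e = 1 ∧ L.B c c = 0 := by
  obtain ⟨c, hc⟩ := L.e_prim
  obtain ⟨k, hk⟩ := L.even c
  refine ⟨c - k • L.e, ?_, ?_⟩
  · simp [hc, L.e_sq]
  · have h1 : L.B L.e c = 1 := by rw [L.symm]; exact hc
    simp [hc, L.e_sq, h1]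
    linarith

/-- membership in `NS0 + 2 H` -/
def InW (x : H) : Prop := ∃ n ∈ L.NS0, ∃ h, x = n + (2 : ℤ) • h

theorem InW.add {x y : H} (hx : L.InW x) (hy : L.InW y) : L.InW (x + y) := by
  obtain ⟨n, hn, h, rfl⟩ := hx
  obtain ⟨n', hn', h', rfl⟩ := hy
  exact ⟨n + n', L.NS0.add_mem hn hn', h + h', by rw [smul_add]; abel⟩

theorem InW.neg {x : H} (hx : L.InW x) : L.InW (-x) := by
  obtain ⟨n, hn, h, rfl⟩ := hx
  exact ⟨-n, L.NS0.neg_mem hn, -h, by rw [smul_neg]; abel⟩

theorem InW.sub {x y : H} (hx : L.InW x) (hy : L.InW y) : L.InW (x - y) := by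
  rw [sub_eq_add_neg]; exact hx.add L (hy.neg L)

theorem inW_of_two {x h : H} (hx : x = (2 : ℤ) • h) : L.InW x :=
  ⟨0, L.NS0.zero_mem, h, by simp [hx]⟩

theorem inW_of_NS0 {x : H} (hx : x ∈ L.NS0) : L.InW x :=
  ⟨x, hx, 0, by simp⟩

/-- the period group `σ(e^⊥)` -/
def perp : Submodule ℤ H := LinearMap.ker (L.B.flip L.e)

theorem mem_perp {x : H} : x ∈ L.perp ↔ L.B x L.e = 0 := by
  simp [perp, LinearMap.mem_ker]

/-- periods as a `ℤ`-linear map on `e^⊥` -/
def per : L.perp →ₗ[ℤ] ℂ := (L.σ.toIntLinearMap).comp L.perp.subtype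

theorem per_apply (x : L.perp) : L.per x = L.σ x := rfl

theorem exists_three [Module.Finite ℤ H] :
    ∃ x y : H, L.B x L.e = 0 ∧ L.B y L.e = 0 ∧ ¬ L.InW x ∧ ¬ L.InW y ∧ ¬ L.InW (x + y) := by
  classical
  let Γ : Submodule ℤ ℂ := LinearMap.range L.per
  have : IsNoetherian ℤ H := isNoetherian_of_isNoetherianRing_of_finite ℤ H
  have : Module.Finite ℤ Γ := Module.Finite.range L.per
  have : Module.Free ℤ Γ := inferInstance
  let b := Module.finBasis ℤ Γ
  -- the rank is at least two
  have hr : 2 ≤ Module.finrank ℤ Γ := by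
    by_contra hlt
    push Not at hlt
    -- all periods are multiples of one complex number
    have : ∃ g : ℂ, ∀ x : L.perp, ∃ k : ℤ, L.per x = k * g := by
      rcases Nat.lt_succ_iff_lt_or_eq.1 hlt with h0 | h1
      · have h0' : Module.finrank ℤ Γ = 0 := by omega
        refine ⟨0, fun x => ⟨0, ?_⟩⟩
        have hx : (⟨L.per x, LinearMap.mem_range_self _ x⟩ : Γ) = 0 := by
          have : Subsingleton Γ := Module.finrank_zero_iff.1 h0'
          exact Subsingleton.elim _ _
        have := congrArg Subtype.val hx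
        simpa using this
      · have i0 : Fin (Module.finrank ℤ Γ) := ⟨0, by omega⟩
        refine ⟨(b i0 : ℂ), fun x => ?_⟩
        let y : Γ := ⟨L.per x, LinearMap.mem_range_self _ x⟩
        refine ⟨b.repr y i0, ?_⟩
        have hy := b.sum_repr y
        have hsub : ∀ i : Fin (Module.finrank ℤ Γ), i = i0 := by
          intro i
          apply Fin.ext
          have := i.2
          have := i0.2
          omega
        rw [Finset.sum_eq_single i0 (fun i _ hi => absurd (hsub i) hi) (by simp)] at hy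
        have := congrArg Subtype.val hy
        simp only [Submodule.coe_smul, zsmul_eq_mul] at this
        exact this.symm
    obtain ⟨g, hg⟩ := this
    by_cases hg0 : g = 0
    · have := L.indep 1 0 (by
        intro x hx
        obtain ⟨k, hk⟩ := hg ⟨x, L.mem_perp.2 hx⟩
        rw [per_apply] at hk
        simp only at hk
        rw [hk, hg0]; simp)
      exact one_ne_zero this.1
    · have := L.indep g.im (-g.re) (by
        intro x hx
        obtain ⟨k, hk⟩ := hg ⟨x, L.mem_perp.2 hx⟩
        rw [per_apply] at hk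
        simp only at hk
        rw [hk]
        simp
        ring)
      apply hg0
      apply Complex.ext
      · simpa using this.2
      · simpa using this.1
  let i0 : Fin (Module.finrank ℤ Γ) := ⟨0, by omega⟩
  let i1 : Fin (Module.finrank ℤ Γ) := ⟨1, by omega⟩
  have h01 : i0 ≠ i1 := by
    intro h
    have := congrArg Fin.val h
    simp [i0, i1] at this
  obtain ⟨x, hx⟩ := (b i0).2
  obtain ⟨y, hy⟩ := (b i1).2
  -- an element of `W ∩ e^⊥` has period in `2 Γ`
  have key : ∀ z : H, L.B z L.e = 0 → L.InW z → ∃ w : L.perp, L.σ z = 2 * L.per w := by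
    rintro z hz ⟨n, hn, h, rfl⟩
    have hh : L.B h L.e = 0 := by
      have := hz
      simp only [map_add, map_smul, LinearMap.add_apply, LinearMap.smul_apply, hn.1] at this
      simpa using this
    refine ⟨⟨h, L.mem_perp.2 hh⟩, ?_⟩
    rw [per_apply]
    simp [hn.2]
  have key2 : ∀ (z : H) (u : Γ), L.B z L.e = 0 → L.σ z = u → (∃ i, ¬ (2 : ℤ) ∣ b.repr u i) →
      ¬ L.InW z := by
    rintro z u hz hzu ⟨i, hi⟩ hW
    obtain ⟨w, hw⟩ := key z hz hW
    apply hi
    let w' : Γ := ⟨L.per w, LinearMap.mem_range_self _ w⟩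
    have : u = (2 : ℤ) • w' := by
      apply Subtype.ext
      rw [← hzu, hw]
      simp [w']
    rw [this]
    simp
  have hx' : L.σ (x : H) = b i0 := by rw [← per_apply]; exact hx
  have hy' : L.σ (y : H) = b i1 := by rw [← per_apply]; exact hy
  refine ⟨x, y, L.mem_perp.1 x.2, L.mem_perp.1 y.2, ?_, ?_, ?_⟩
  · exact key2 x (b i0) (L.mem_perp.1 x.2) hx' ⟨i0, by simp⟩
  · exact key2 y (b i1) (L.mem_perp.1 y.2) hy' ⟨i1, by simp⟩
  · refine key2 _ (b i0 + b i1) ?_ ?_ ⟨i0, ?_⟩
    · rw [map_add, LinearMap.add_apply, L.mem_perp.1 x.2, L.mem_perp.1 y.2, add_zero]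
    · rw [map_add, hx', hy']; rfl
    · simp [Finsupp.single_eq_of_ne h01]

/-- the part of `H` orthogonal to `e` and `c` -/
def Ec (c : H) : Submodule ℤ H := L.perp ⊓ LinearMap.ker (L.B.flip c)

theorem mem_Ec {c x : H} : x ∈ L.Ec c ↔ L.B x L.e = 0 ∧ L.B x c = 0 := by
  simp [Ec, mem_perp, LinearMap.mem_ker]

/-- unimodularity of `Ec` -/
theorem unimod_Ec {c : H} (hc : L.B c L.e = 1) (hcc : L.B c c = 0) (f : L.Ec c →ₗ[ℤ] ℤ) :
    ∃ x : L.Ec c, ∀ y : L.Ec c, L.B x y = f y := by
  -- projection to `Ec`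
  have hec : L.B L.e c = 1 := by rw [L.symm]; exact hc
  have hmem : ∀ z : H, z - L.B z L.e • c - L.B z c • L.e ∈ L.Ec c := by
    intro z
    rw [mem_Ec]
    constructor
    · simp [hc, L.e_sq]
    · simp [hcc, hec]
  let pr : H →ₗ[ℤ] L.Ec c :=
    { toFun := fun z => ⟨z - L.B z L.e • c - L.B z c • L.e, hmem z⟩
      map_add' := by
        intro x y
        apply Subtype.ext
        simp only [map_add, LinearMap.add_apply, Submodule.coe_add, add_smul]
        abel
      map_smul' := by
        intro k x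
        apply Subtype.ext
        simp only [map_smul, LinearMap.smul_apply, smul_eq_mul, mul_smul, Submodule.coe_smul,
          RingHom.id_apply, smul_sub] }
  obtain ⟨x, hx⟩ := L.unimod (f.comp pr)
  have hpr : ∀ y : L.Ec c, pr y = y := by
    intro y
    apply Subtype.ext
    have := L.mem_Ec.1 y.2
    simp [pr, this.1, this.2]
  refine ⟨⟨x - L.B x L.e • c - L.B x c • L.e, hmem x⟩, fun y => ?_⟩
  have h1 := L.mem_Ec.1 y.2
  have h2 : L.B c y = 0 := by rw [L.symm]; exact h1.2
  have h3 : L.B L.e y = 0 := by rw [L.symm]; exact h1.1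
  simp only [map_sub, map_smul, LinearMap.sub_apply, LinearMap.smul_apply, h2, h3, smul_zero,
    sub_zero]
  rw [hx y, LinearMap.comp_apply, hpr]

/-- the crucial class modulo two -/
theorem exists_mod_two [Module.Finite ℤ H] [Module.Free ℤ H] :
    ∃ x, L.B x L.e = 0 ∧ 4 ∣ L.B x x ∧ ¬ L.InW x := by
  classical
  by_contra hcon
  push Not at hcon
  obtain ⟨c, hc, hcc⟩ := L.exists_c
  have hec : L.B L.e c = 1 := by rw [L.symm]; exact hc
  obtain ⟨x0, y0, hx0, hy0, hx0W, hy0W, hxyW⟩ := L.exists_three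
  -- squares outside `W` are `2` modulo `4`
  have hsq : ∀ x, L.B x L.e = 0 → ¬ L.InW x → L.B x x % 4 = 2 := by
    intro x hx hW
    have h1 : ¬ (4 ∣ L.B x x) := fun h => hW (hcon x hx h)
    obtain ⟨k, hk⟩ := L.even x
    omega
  have hbil : ∀ x w, L.B (x + w) (x + w) = L.B x x + 2 * L.B x w + L.B w w := by
    intro x w
    have := L.symm w x
    simp [this]; ring
  -- adding an element of `W`
  have hadd : ∀ x w, ¬ L.InW x → L.InW w → ¬ L.InW (x + w) := by
    intro x w hx hw h
    apply hx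
    have := h.sub L hw
    simpa using this
  have h4 : ∀ w, L.B w L.e = 0 → L.InW w → ∀ x, L.B x L.e = 0 → ¬ L.InW x →
      (2 * L.B x w + L.B w w) % 4 = 0 := by
    intro w hw hW x hx hxW
    have h1 := hsq x hx hxW
    have h2 := hsq (x + w) (by simp [hx, hw]) (hadd x w hxW hW)
    rw [hbil] at h2
    omega
  have hWev : ∀ w, L.B w L.e = 0 → L.InW w → ∀ z, L.B z L.e = 0 → Even (L.B z w) := by
    intro w hw hW
    have a1 := h4 w hw hW x0 hx0 hx0W
    have a2 := h4 w hw hW y0 hy0 hy0W
    have a3 := h4 w hw hW (x0 + y0) (by simp [hx0, hy0]) hxyW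
    simp only [map_add, LinearMap.add_apply] at a3
    have hww : L.B w w % 4 = 0 := by omega
    have hout : ∀ z, L.B z L.e = 0 → ¬ L.InW z → Even (L.B z w) := by
      intro z hz hzW
      have := h4 w hw hW z hz hzW
      rw [Int.even_iff]
      omega
    intro z hz
    by_cases hzW : L.InW z
    · have h1 := hout x0 hx0 hx0W
      have h2 := hout (x0 + z) (by simp [hx0, hz]) (hadd x0 z hx0W hzW)
      simp only [map_add, LinearMap.add_apply] at h2
      rw [Int.even_add] at h2
      exact h2.1 h1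
    · exact hout z hz hzW
  -- elements of `W ∩ Ec` are divisible by two in `Ec`
  have hWE : ∀ w : L.Ec c, L.InW (w : H) → ∃ h : L.Ec c, w = (2 : ℤ) • h := by
    intro w hW
    obtain ⟨hw1, hw2⟩ := L.mem_Ec.1 w.2
    have hdvd : ∀ z, (2 : ℤ) ∣ L.B (w : H) z := by
      intro z
      have h1 := hWev w hw1 hW (z - L.B z L.e • c) (by simp [hc])
      rw [L.symm] at h1
      simp only [map_sub, map_smul, hw2, smul_zero, sub_zero] at h1
      exact even_iff_two_dvd.1 h1
    obtain ⟨h, hh⟩ := L.exists_smul_of_dvd two_ne_zero hdvd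
    have m1 : L.B h L.e = 0 := by
      have := hw1
      rw [hh] at this
      simpa using this
    have m2 : L.B h c = 0 := by
      have := hw2
      rw [hh] at this
      simpa using this
    exact ⟨⟨h, L.mem_Ec.2 ⟨m1, m2⟩⟩, Subtype.ext hh⟩
  have hnd : ∀ z : L.Ec c, (∀ h : L.Ec c, z ≠ (2 : ℤ) • h) → L.B (z : H) z % 4 = 2 := by
    intro z hz
    apply hsq z (L.mem_Ec.1 z.2).1
    intro hW
    obtain ⟨h, hh⟩ := hWE z hW
    exact hz h hh
  have : IsNoetherian ℤ H := isNoetherian_of_isNoetherianRing_of_finite ℤ H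
  have : Module.Finite ℤ (L.Ec c) := inferInstance
  have : Module.Free ℤ (L.Ec c) := inferInstance
  obtain ⟨N, ⟨b⟩⟩ : ∃ n, Nonempty (Module.Basis (Fin n) ℤ (L.Ec c)) :=
    ⟨_, ⟨Module.finBasis ℤ (L.Ec c)⟩⟩
  have hnot : ∀ (z : L.Ec c) (i : Fin N), ¬ (2 : ℤ) ∣ b.repr z i →
      ∀ h : L.Ec c, z ≠ (2 : ℤ) • h := by
    rintro z i hi h rfl
    apply hi
    simp
  have hbi : ∀ i, L.B (b i : H) (b i) % 4 = 2 := by
    intro i
    exact hnd _ (hnot _ i (by simp))
  have hbij : ∀ i j, i ≠ j → L.B (b i : H) (b j) % 2 = 1 := by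
    intro i j hij
    have h1 := hbi i
    have h2 := hbi j
    have h3 := hnd (b i + b j) (hnot _ i (by simp [Finsupp.single_eq_of_ne hij]))
    rw [Submodule.coe_add, hbil] at h3
    omega
  rcases Nat.lt_or_ge N 3 with hlt | hge
  · -- rank at most two: use unimodularity
    have hdual : ∀ i, ∃ x : L.Ec c, ∀ j, L.B (x : H) (b j) = if j = i then 1 else 0 := by
      intro i
      obtain ⟨x, hx⟩ := L.unimod_Ec hc hcc (b.coord i)
      refine ⟨x, fun j => ?_⟩
      rw [hx]
      simp [Finsupp.single_apply]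
    interval_cases N
    · -- rank zero
      have hsub : Subsingleton (L.Ec c) := b.repr.toEquiv.injective.subsingleton
      have h0 : ∀ x, L.B x L.e = 0 → L.σ x = 0 := by
        intro x hx
        have hm : x - L.B x c • L.e ∈ L.Ec c := by
          rw [mem_Ec]
          simp [hx, L.e_sq, hec]
        have h1 : (⟨x - L.B x c • L.e, hm⟩ : L.Ec c) = 0 := Subsingleton.elim _ _
        have h2 := congrArg Subtype.val h1
        simp only [Submodule.coe_zero] at h2
        rw [sub_eq_zero.1 h2]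
        simp [L.σ_e]
      have := L.indep 1 0 (by intro x hx; simp [h0 x hx])
      exact one_ne_zero this.1
    · obtain ⟨x, hx⟩ := hdual 0
      have h1 := hx 0
      have h2 := b.sum_repr x
      rw [Fin.sum_univ_one] at h2
      rw [← h2] at h1
      simp only [Submodule.coe_smul, map_smul, LinearMap.smul_apply, smul_eq_mul, if_true] at h1
      have h3 := hbi 0
      have h4 : Even (L.B (b 0 : H) (b 0)) := L.even _
      obtain ⟨k, hk⟩ := h4
      rw [hk] at h1
      have : (b.repr x 0) * (k + k) = 2 * (b.repr x 0 * k) := by ring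
      omega
    · obtain ⟨x, hx⟩ := hdual 0
      obtain ⟨y, hy⟩ := hdual 1
      have x2 := b.sum_repr x
      have y2 := b.sum_repr y
      rw [Fin.sum_univ_two] at x2 y2
      have hx0 := hx 0
      have hx1 := hx 1
      have hy0 := hy 0
      have hy1 := hy 1
      rw [← x2] at hx0 hx1
      rw [← y2] at hy0 hy1
      simp only [Submodule.coe_add, Submodule.coe_smul, map_add, LinearMap.add_apply, map_smul,
        LinearMap.smul_apply, smul_eq_mul] at hx0 hx1 hy0 hy1
      simp at hx0 hx1 hy0 hy1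
      have s10 : L.B (b 1 : H) (b 0) = L.B (b 0 : H) (b 1) := L.symm _ _
      rw [s10] at hx0 hy0
      have d01 := hbij 0 1 (by decide)
      have d0 := hbi 0
      have d1 := hbi 1
      set A := L.B (b 0 : H) (b 0)
      set C := L.B (b 1 : H) (b 1)
      set D := L.B (b 0 : H) (b 1)
      set p := b.repr x 0
      set q := b.repr x 1
      set r := b.repr y 0
      set t := b.repr y 1
      -- (A C - D²) (p t - q r) = 1
      have hdet : (A * C - D * D) * (p * t - q * r) = 1 := by
        have e : (A * C - D * D) * (p * t - q * r)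
            = (p * A + q * D) * (r * D + t * C) - (p * D + q * C) * (r * A + t * D) := by ring
        rw [e, hx0, hy1, hx1, hy0]; ring
      have hD8 : (A * C - D * D) % 8 = 3 := by
        obtain ⟨a, ha⟩ : ∃ a, A = 4 * a + 2 := ⟨A / 4, by omega⟩
        obtain ⟨c', hc'⟩ : ∃ a, C = 4 * a + 2 := ⟨C / 4, by omega⟩
        obtain ⟨d, hd⟩ : ∃ a, D = 2 * a + 1 := ⟨D / 2, by omega⟩
        obtain ⟨g, hg⟩ : ∃ g, d * d + d = 2 * g := by
          rcases Int.even_mul_succ_self d with ⟨g, hg⟩
          exact ⟨g, by linarith⟩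
        have : A * C - D * D = 8 * (2 * a * c' + a + c') + 4 - (4 * (d * d + d) + 1) := by
          rw [ha, hc', hd]; ring
        rw [this, hg]
        omega
      rcases Int.isUnit_iff.1 (IsUnit.of_mul_eq_one _ hdet) with h | h <;> omega
  · -- rank at least three
    let i0 : Fin N := ⟨0, by omega⟩
    let i1 : Fin N := ⟨1, by omega⟩
    let i2 : Fin N := ⟨2, by omega⟩
    have h01 : i0 ≠ i1 := by simp [i0, i1]
    have h02 : i0 ≠ i2 := by simp [i0, i2]
    have h12 : i1 ≠ i2 := by simp [i1, i2]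
    have a0 := hbi i0
    have a1 := hbi i1
    have a2 := hbi i2
    have a01 := hbij i0 i1 h01
    have a02 := hbij i0 i2 h02
    have a12 := hbij i1 i2 h12
    have h3 := hnd (b i0 + b i1 + b i2) (hnot _ i0 (by
      simp [Finsupp.single_eq_of_ne h01, Finsupp.single_eq_of_ne h02]))
    rw [Submodule.coe_add, Submodule.coe_add, hbil, hbil] at h3
    simp only [map_add, LinearMap.add_apply] at h3
    omega

/-- **Theorem A**, without the positivity on the fibre components -/
theorem theoremA_aux [Module.Finite ℤ H] [Module.Free ℤ H] :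
    ∃ v, L.B v v = 0 ∧ L.B v L.e = 2 ∧ L.Index v 2 := by
  obtain ⟨c, hc, hcc⟩ := L.exists_c
  have hec : L.B L.e c = 1 := by rw [L.symm]; exact hc
  obtain ⟨w, hw, ⟨k, hk⟩, hwW⟩ := L.exists_mod_two
  have hew : L.B L.e w = 0 := by rw [L.symm]; exact hw
  have hwc : L.B w c = L.B c w := L.symm _ _
  refine ⟨(2 : ℤ) • c + w - (L.B c w + k) • L.e, ?_, ?_, ?_⟩
  · simp [hcc, hc, hw, L.e_sq, hec, hew, hwc, hk]
    ring
  · simp [hc, hw, L.e_sq]
  · apply L.index_aux Nat.prime_two
    · simp [hc, hw, L.e_sq]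
    · intro n hn h hh
      apply hwW
      refine ⟨n + (L.B c w + k) • L.e, L.NS0.add_mem hn (L.NS0.smul_mem _ L.e_mem), h - c, ?_⟩
      have : w = n + (2 : ℤ) • h + (L.B c w + k) • L.e - (2 : ℤ) • c := by
        have hh' : (2 : ℤ) • c + w - (L.B c w + k) • L.e = n + (2 : ℤ) • h := by exact_mod_cast hh
        rw [← hh']; abel
      rw [smul_sub]
      conv_lhs => rw [this]
      abel

end EllLat

end Vale.Agent.P290.H345
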