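import Vale.Agent.P290.H345.LatticeBasic

/-!
# Linear algebra of one fibre, and the dominance lemma (affine Weyl group)
-/

namespace Vale.Agent.P290.H345

namespace EllLat

variable {H : Type*} [AddCommGroup H] {S : Type*} {J : S → Type*} [∀ s, Fintype (J s)]
variable (L : EllLat H S J)

theorem B_sum_left {ι : Type*} (F : Finset ι) (a : ι → ℤ) (u : ι → H) (y : H) :
    L.B (∑ j ∈ F, a j • u j) y = ∑ j ∈ F, a j * L.B (u j) y := by
  simp [map_sum]

/-- Nondegenerate families: one can prescribe the products up to a common factor. -/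
theorem solve {ι : Type*} [Fintype ι] (u : ι → H)
    (hu : ∀ a : ι → ℤ, (∀ k, L.B (∑ j, a j • u j) (u k) = 0) → ∀ j, a j = 0) :
    ∃ D : ℤ, 0 < D ∧ ∀ f : ι → ℤ, ∃ a : ι → ℤ, ∀ k, L.B (∑ j, a j • u j) (u k) = D * f k := by
  classical
  let A : Matrix ι ι ℤ := Matrix.of fun j k => L.B (u k) (u j)
  have hmul : ∀ (a : ι → ℤ) (k : ι), (A.mulVec a) k = L.B (∑ j, a j • u j) (u k) := by
    intro a k
    rw [B_sum_left]
    simp only [Matrix.mulVec, dotProduct, A, Matrix.of_apply]
    exact Finset.sum_congr rfl fun j _ => mul_comm _ _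
  have hdet : A.det ≠ 0 := by
    intro h
    obtain ⟨a, ha, ha'⟩ := Matrix.exists_mulVec_eq_zero_iff.2 h
    apply ha
    funext j
    exact hu a (fun k => by rw [← hmul, ha']; rfl) j
  refine ⟨A.det * A.det, mul_self_pos.2 hdet, fun f => ?_⟩
  refine ⟨A.det • (A.adjugate.mulVec f), fun k => ?_⟩
  rw [← hmul, Matrix.mulVec_smul, Matrix.mulVec_mulVec, Matrix.mul_adjugate, Matrix.smul_mulVec,
    Matrix.one_mulVec]
  simp [mul_assoc]

/-- Zariski's lemma for one fibre -/
theorem zariski (s : S) (a : J s → ℤ) (ha : ∀ k, L.B (∑ j, a j • L.Θ s j) (L.Θ s k) = 0)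
    (i : J s) : ∀ j, a j * L.mult s i = a i * L.mult s j := by
  classical
  -- it suffices to find one index with this property
  suffices h : ∃ k0, ∀ j, a j * L.mult s k0 = a k0 * L.mult s j by
    obtain ⟨k0, h⟩ := h
    intro j
    have h1 := h j
    have h2 := h i
    have h0 := (L.mult_pos s k0).ne'
    apply mul_right_cancel₀ h0
    calc a j * L.mult s i * L.mult s k0 = (a j * L.mult s k0) * L.mult s i := by ring
      _ = (a k0 * L.mult s j) * L.mult s i := by rw [h1]
      _ = (a k0 * L.mult s i) * L.mult s j := by ring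
      _ = (a i * L.mult s k0) * L.mult s j := by rw [h2]
      _ = a i * L.mult s j * L.mult s k0 := by ring
  -- an index maximizing `a j / m j`
  obtain ⟨k0, -, hk0⟩ := Finset.exists_max_image (Finset.univ : Finset (J s))
    (fun j => (a j : ℚ) / (L.mult s j : ℚ)) ⟨i, Finset.mem_univ _⟩
  have hmax : ∀ j, a j * L.mult s k0 ≤ a k0 * L.mult s j := by
    intro j
    have h := hk0 j (Finset.mem_univ _)
    have p1 : (0 : ℚ) < L.mult s j := by exact_mod_cast L.mult_pos s j
    have p2 : (0 : ℚ) < L.mult s k0 := by exact_mod_cast L.mult_pos s k0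
    rw [div_le_div_iff₀ p1 p2] at h
    exact_mod_cast h
  refine ⟨k0, ?_⟩
  set d : J s → ℤ := fun j => a k0 * L.mult s j - a j * L.mult s k0 with hd
  have hd0 : ∀ j, 0 ≤ d j := fun j => by simp only [hd]; linarith [hmax j]
  have hdk0 : d k0 = 0 := by simp only [hd]; ring
  have hdsum : ∀ k, ∑ j, d j * L.B (L.Θ s j) (L.Θ s k) = 0 := by
    intro k
    have h1 : ∑ j, L.mult s j * L.B (L.Θ s j) (L.Θ s k) = 0 := by
      rw [← B_sum_left, L.sum_mult, L.symm, L.Θ_e]
    have h2 : ∑ j, a j * L.B (L.Θ s j) (L.Θ s k) = 0 := by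
      rw [← B_sum_left]; exact ha k
    have : ∑ j, d j * L.B (L.Θ s j) (L.Θ s k)
        = a k0 * ∑ j, L.mult s j * L.B (L.Θ s j) (L.Θ s k)
          - L.mult s k0 * ∑ j, a j * L.B (L.Θ s j) (L.Θ s k) := by
      rw [Finset.mul_sum, Finset.mul_sum, ← Finset.sum_sub_distrib]
      exact Finset.sum_congr rfl fun j _ => by simp only [hd]; ring
    rw [this, h1, h2]; ring
  -- the support of `d` is orthogonal to its complement
  have horth : ∀ k, d k = 0 → ∀ j, d j ≠ 0 → L.B (L.Θ s j) (L.Θ s k) = 0 := by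
    intro k hk j hj
    have hnn : ∀ j ∈ (Finset.univ : Finset (J s)), 0 ≤ d j * L.B (L.Θ s j) (L.Θ s k) := by
      intro j' _
      by_cases h : j' = k
      · rw [h, hk, zero_mul]
      · exact mul_nonneg (hd0 j') (L.Θ_Θ s j' k h)
    have := (Finset.sum_eq_zero_iff_of_nonneg hnn).1 (hdsum k) j (Finset.mem_univ _)
    exact (mul_eq_zero.1 this).resolve_left hj
  -- the part of the fibre where `d = 0`
  let F : H := ∑ j, (if d j = 0 then L.mult s j else 0) • L.Θ s j
  have hFk : ∀ k, d k = 0 → L.B F (L.Θ s k) = 0 := by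
    intro k hk
    have h1 : ∑ j, L.mult s j * L.B (L.Θ s j) (L.Θ s k) = 0 := by
      rw [← B_sum_left, L.sum_mult, L.symm, L.Θ_e]
    simp only [F]
    rw [B_sum_left]
    refine Eq.trans ?_ h1
    apply Finset.sum_congr rfl
    intro j _
    by_cases h : d j = 0
    · rw [if_pos h]
    · rw [if_neg h, horth k hk j h]; simp
  have hFe : L.B F L.e = 0 := by
    simp only [F]
    rw [B_sum_left]
    exact Finset.sum_eq_zero fun j _ => by rw [L.Θ_e]; simp
  have hFσ : L.σ F = 0 := by
    simp only [F, map_sum]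
    exact Finset.sum_eq_zero fun j _ => by rw [map_zsmul, L.σ_Θ]; simp
  have hFF : L.B F F = 0 := by
    have : L.B F F = ∑ j, (if d j = 0 then L.mult s j else 0) * L.B (L.Θ s j) F := by
      conv_lhs => rw [show L.B F F = L.B (∑ j, (if d j = 0 then L.mult s j else 0) • L.Θ s j) F from rfl]
      rw [B_sum_left]
    rw [this]
    apply Finset.sum_eq_zero
    intro j _
    by_cases h : d j = 0
    · rw [L.symm, hFk j h]; simp
    · rw [if_neg h]; simp
  obtain ⟨k, hk⟩ := L.neg_zero F hFe hFσ hFF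
  have hkey : ∀ j, d j = 0 := by
    rcases le_or_gt k 0 with hk0' | hk0'
    · -- impossible
      have hz : ∑ j, ((if d j = 0 then L.mult s j else 0) - k * L.mult s j) • L.Θ s j = 0 := by
        simp only [sub_smul, Finset.sum_sub_distrib, mul_smul]
        rw [← Finset.smul_sum, L.sum_mult, ← hk]
        simp [F]
      have hnn : ∀ j, 0 ≤ (if d j = 0 then L.mult s j else 0) - k * L.mult s j := by
        intro j
        have h1 : 0 ≤ -(k * L.mult s j) := by
          have := L.mult_pos s j
          nlinarith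
        split_ifs
        · linarith [L.mult_pos s j]
        · linarith
      have := L.pos s _ hnn hz k0
      rw [if_pos hdk0] at this
      have h1 := L.mult_pos s k0
      nlinarith
    · have hz : ∑ j, ((if d j = 0 then 0 else L.mult s j) + (k - 1) * L.mult s j) • L.Θ s j = 0 := by
        have h1 : ∀ j, ((if d j = 0 then 0 else L.mult s j) + (k - 1) * L.mult s j) • L.Θ s j
            = k • (L.mult s j • L.Θ s j) - (if d j = 0 then L.mult s j else 0) • L.Θ s j := by
          intro j
          split_ifs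
          · rw [← mul_smul, ← sub_smul]
            congr 1; ring
          · rw [← mul_smul, ← sub_smul]
            congr 1; ring
        rw [Finset.sum_congr rfl fun j _ => h1 j, Finset.sum_sub_distrib, ← Finset.smul_sum,
          L.sum_mult, ← hk, sub_self]
      have hnn : ∀ j, 0 ≤ (if d j = 0 then 0 else L.mult s j) + (k - 1) * L.mult s j := by
        intro j
        have h1 : 0 ≤ (k - 1) * L.mult s j := mul_nonneg (by linarith) (L.mult_pos s j).le
        split_ifs
        · linarith
        · linarith [L.mult_pos s j]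
      intro j
      by_contra hj
      have := L.pos s _ hnn hz j
      rw [if_neg hj] at this
      have h1 := L.mult_pos s j
      nlinarith
  intro j
  have := hkey j
  simp only [hd] at this
  linarith

/-- Span of the components of one fibre, without the component `i`. -/
theorem fibre_solve (s : S) (i : J s) : ∃ D : ℤ, 0 < D ∧ ∀ f : J s → ℤ, ∃ a : J s → ℤ,
    ∀ k, k ≠ i → L.B (∑ j, a j • L.Θ s j) (L.Θ s k) = D * f k := by
  classical
  have hext : ∀ (a : {j : J s // j ≠ i} → ℤ),
      ∑ j, a j • L.Θ s j = ∑ j, (if h : j ≠ i then a ⟨j, h⟩ else 0) • L.Θ s j := by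
    intro a
    have h1 : ∑ j ∈ Finset.univ.filter (fun j : J s => j ≠ i),
        (if h : j ≠ i then a ⟨j, h⟩ else 0) • L.Θ s j
        = ∑ j : {j : J s // j ≠ i}, (if h : (j : J s) ≠ i then a ⟨j, h⟩ else 0) • L.Θ s j :=
      Finset.sum_subtype _ (by simp) _
    rw [Finset.sum_filter_of_ne] at h1
    · rw [h1]
      apply Finset.sum_congr rfl
      intro j _
      rw [dif_pos j.2]
    · intro x _ hx
      by_contra hxi
      apply hx
      rw [dif_neg (by simpa using hxi), zero_smul]
  obtain ⟨D, hD, h⟩ := L.solve (fun j : {j : J s // j ≠ i} => L.Θ s j) (by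
    intro a ha
    rw [hext] at ha
    set a' : J s → ℤ := fun j => if h : j ≠ i then a ⟨j, h⟩ else 0 with ha'
    set r : H := ∑ j, a' j • L.Θ s j with hr
    have hre : L.B r L.e = 0 := by
      rw [hr, B_sum_left]
      exact Finset.sum_eq_zero fun j _ => by rw [L.Θ_e]; simp
    have hrσ : L.σ r = 0 := by
      rw [hr, map_sum]
      exact Finset.sum_eq_zero fun j _ => by rw [map_zsmul, L.σ_Θ]; simp
    have hrr : L.B r r = 0 := by
      have : L.B r r = ∑ j, a' j * L.B (L.Θ s j) r := by
        conv_lhs => rw [show L.B r r = L.B (∑ j, a' j • L.Θ s j) r from rfl]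
        rw [B_sum_left]
      rw [this]
      apply Finset.sum_eq_zero
      intro j _
      by_cases hj : j ≠ i
      · rw [L.symm, ha ⟨j, hj⟩, mul_zero]
      · rw [ha']; simp only; rw [dif_neg hj, zero_mul]
    obtain ⟨k, hk⟩ := L.neg_zero r hre hrσ hrr
    have hall : ∀ j, L.B r (L.Θ s j) = 0 := by
      intro j
      rw [hk, map_smul, LinearMap.smul_apply, L.symm, L.Θ_e, smul_zero]
    have hz := L.zariski s a' hall i
    intro j
    have h1 := hz j
    have h2 : a' i = 0 := by rw [ha']; simp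
    have h3 : a' (j : J s) = a j := by rw [ha']; simp only; rw [dif_pos j.2]
    rw [h2, zero_mul, h3] at h1
    exact (mul_eq_zero.1 h1).resolve_right (L.mult_pos s i).ne')
  refine ⟨D, hD, fun f => ?_⟩
  obtain ⟨a, ha⟩ := h (fun j => f j)
  refine ⟨fun j => if h : j ≠ i then a ⟨j, h⟩ else 0, fun k hk => ?_⟩
  rw [← hext]
  exact ha ⟨k, hk⟩

/-- the combinations of the components of the fibres in `F` -/
def span (F : S → Prop) : Submodule ℤ H := Submodule.span ℤ {x | ∃ s j, F s ∧ x = L.Θ s j}

theorem span_le (F : S → Prop) : L.span F ≤ L.NS0 := by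
  rw [span, Submodule.span_le]
  rintro x ⟨s, j, -, rfl⟩
  exact L.Θ_mem s j

theorem Θ_mem_span {F : S → Prop} {s : S} (hs : F s) (j : J s) : L.Θ s j ∈ L.span F :=
  Submodule.subset_span ⟨s, j, hs, rfl⟩

theorem sum_mem_span {F : S → Prop} {s : S} (hs : F s) (a : J s → ℤ) :
    ∑ j, a j • L.Θ s j ∈ L.span F :=
  Submodule.sum_mem _ fun j _ => Submodule.smul_mem _ _ (L.Θ_mem_span hs j)

theorem span_orth {F : S → Prop} {y : H} (hy : y ∈ L.span F) {s : S} (hs : ¬ F s) (j : J s) :
    L.B y (L.Θ s j) = 0 := by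
  induction hy using Submodule.span_induction with
  | mem x hx =>
    obtain ⟨t, k, ht, rfl⟩ := hx
    exact L.Θ_disj t s k j (by rintro rfl; exact hs ht)
  | zero => simp
  | add x y _ _ hx hy => simp [hx, hy]
  | smul a x _ hx => simp [hx]

theorem exists_kappa_one {v : H} (hv : 0 < L.B v L.e) (s : S) :
    ∃ μ : ℤ, 0 < μ ∧ ∃ a : J s → ℤ, ∀ j, 0 < L.B (μ • v + ∑ j, a j • L.Θ s j) (L.Θ s j) := by
  classical
  by_cases hne : Nonempty (J s)
  swap
  · exact ⟨1, one_pos, fun _ => 0, fun j => absurd ⟨j⟩ hne⟩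
  obtain ⟨i⟩ := hne
  obtain ⟨D, hD, hsol⟩ := L.fibre_solve s i
  obtain ⟨a1, h1⟩ := hsol (fun _ => 1)
  obtain ⟨a2, h2⟩ := hsol (fun j => L.B v (L.Θ s j))
  set M : ℤ := ∑ j, L.mult s j with hM
  have hM0 : 0 < M := Finset.sum_pos (fun j _ => L.mult_pos s j) ⟨i, Finset.mem_univ _⟩
  refine ⟨M * D, mul_pos hM0 hD, fun j => a1 j - M * a2 j, ?_⟩
  have hrw : (M * D) • v + ∑ j, (a1 j - M * a2 j) • L.Θ s j
      = (M * D) • v + ∑ j, a1 j • L.Θ s j - M • ∑ j, a2 j • L.Θ s j := by
    simp only [sub_smul, Finset.sum_sub_distrib, mul_smul, Finset.smul_sum]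
    abel
  rw [hrw]
  set κ := (M * D) • v + ∑ j, a1 j • L.Θ s j - M • ∑ j, a2 j • L.Θ s j with hκ
  have hother : ∀ j, j ≠ i → L.B κ (L.Θ s j) = D := by
    intro j hj
    rw [hκ]
    simp only [map_add, map_sub, map_smul, LinearMap.add_apply, LinearMap.sub_apply,
      LinearMap.smul_apply]
    rw [h1 j hj, h2 j hj]
    simp
    ring
  have hsum : ∑ j, L.mult s j * L.B κ (L.Θ s j) = M * D * L.B v L.e := by
    have e1 : ∑ j, L.mult s j * L.B κ (L.Θ s j) = L.B κ L.e := by
      rw [← L.sum_mult s, map_sum]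
      exact Finset.sum_congr rfl fun j _ => by simp
    rw [e1, hκ]
    have e2 : ∀ a : J s → ℤ, L.B (∑ j, a j • L.Θ s j) L.e = 0 := by
      intro a
      rw [B_sum_left]
      exact Finset.sum_eq_zero fun j _ => by rw [L.Θ_e]; simp
    simp only [map_add, map_sub, map_smul, LinearMap.add_apply, LinearMap.sub_apply,
      LinearMap.smul_apply]
    rw [e2, e2]
    simp
  intro j
  by_cases hj : j = i
  · subst hj
    rw [← Finset.add_sum_erase _ _ (Finset.mem_univ j)] at hsum
    have h3 : ∑ x ∈ Finset.univ.erase j, L.mult s x * L.B κ (L.Θ s x)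
        = (M - L.mult s j) * D := by
      rw [hM, ← Finset.add_sum_erase _ _ (Finset.mem_univ j), add_sub_cancel_left, Finset.sum_mul]
      exact Finset.sum_congr rfl fun x hx => by rw [hother x (Finset.ne_of_mem_erase hx)]
    rw [h3] at hsum
    have hmj := L.mult_pos s j
    have h4 : 0 < L.mult s j * L.B κ (L.Θ s j) := by
      have : M * D * L.B v L.e ≥ M * D := by
        have := mul_pos hM0 hD
        nlinarith
      have := mul_pos hmj hD
      nlinarith
    exact (mul_pos_iff_of_pos_left hmj).1 h4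
  · rw [hother j hj]; exact hD

theorem exists_kappa [Finite S] {v : H} (hv : 0 < L.B v L.e) :
    ∃ μ : ℤ, 0 < μ ∧ ∃ r ∈ L.NS0, ∀ s j, 0 < L.B (μ • v + r) (L.Θ s j) := by
  classical
  have := Fintype.ofFinite S
  have key : ∀ F : Finset S, ∃ μ : ℤ, 0 < μ ∧ ∃ r ∈ L.span (· ∈ F), ∀ s ∈ F, ∀ j,
      0 < L.B (μ • v + r) (L.Θ s j) := by
    intro F
    induction F using Finset.induction_on with
    | empty => exact ⟨1, one_pos, 0, Submodule.zero_mem _, by simp⟩
    | insert s F hs ih =>
      obtain ⟨μ, hμ, r, hr, hrF⟩ := ih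
      obtain ⟨μ', hμ', a, ha⟩ := L.exists_kappa_one hv s
      have hmono : L.span (· ∈ F) ≤ L.span (· ∈ insert s F) := by
        apply Submodule.span_mono
        rintro x ⟨t, j, ht, rfl⟩
        exact ⟨t, j, Finset.mem_insert_of_mem ht, rfl⟩
      refine ⟨μ * μ', mul_pos hμ hμ', μ' • r + μ • ∑ j, a j • L.Θ s j, ?_, ?_⟩
      · refine Submodule.add_mem _ (Submodule.smul_mem _ _ (hmono hr)) (Submodule.smul_mem _ _ ?_)
        exact L.sum_mem_span (Finset.mem_insert_self s F) a
      · intro t ht j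
        have horth : ∀ t, t ≠ s → ∀ j, L.B (∑ j, a j • L.Θ s j) (L.Θ t j) = 0 := by
          intro t hts j
          rw [B_sum_left]
          exact Finset.sum_eq_zero fun k _ => by rw [L.Θ_disj s t k j (Ne.symm hts), mul_zero]
        rcases Finset.mem_insert.1 ht with h | h
        · subst h
          have h0 : L.B r (L.Θ t j) = 0 := L.span_orth hr hs j
          have h1 := ha j
          have e : L.B ((μ * μ') • v + (μ' • r + μ • ∑ j, a j • L.Θ t j)) (L.Θ t j)
              = μ * L.B (μ' • v + ∑ j, a j • L.Θ t j) (L.Θ t j) := by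
            simp only [map_add, map_smul, LinearMap.add_apply, LinearMap.smul_apply, h0,
              smul_eq_mul]
            ring
          rw [e]
          exact mul_pos hμ h1
        · have hts : t ≠ s := by rintro rfl; exact hs h
          have h0 := horth t hts j
          have h1 := hrF t h j
          have e : L.B ((μ * μ') • v + (μ' • r + μ • ∑ j, a j • L.Θ s j)) (L.Θ t j)
              = μ' * L.B (μ • v + r) (L.Θ t j) := by
            simp only [map_add, map_smul, LinearMap.add_apply, LinearMap.smul_apply, h0,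
              smul_eq_mul]
            ring
          rw [e]
          exact mul_pos hμ' h1
  obtain ⟨μ, hμ, r, hr, h⟩ := key Finset.univ
  exact ⟨μ, hμ, r, L.span_le _ hr, fun s j => h s (Finset.mem_univ _) j⟩

theorem sq_reflect (x : H) (s : S) (j : J s) :
    L.B (x + L.B x (L.Θ s j) • L.Θ s j) (x + L.B x (L.Θ s j) • L.Θ s j) = L.B x x := by
  have s1 : L.B (L.Θ s j) x = L.B x (L.Θ s j) := L.symm _ _
  simp only [map_add, map_smul, LinearMap.add_apply, LinearMap.smul_apply, smul_eq_mul, s1,
    L.Θ_sq]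
  ring

/-- **Dominance lemma**: by adding components of the fibres in `F` an isotropic class of positive
fibre degree can be made nonnegative on all these components. -/
theorem dominance [Finite S] (F : S → Prop) {v : H} (hvv : L.B v v = 0) (hv : 0 < L.B v L.e) :
    ∃ y ∈ L.span F, L.B (v + y) (v + y) = 0 ∧ ∀ s, F s → ∀ j, 0 ≤ L.B (v + y) (L.Θ s j) := by
  classical
  obtain ⟨μ, hμ, r, hr, hκ⟩ := L.exists_kappa hv
  obtain ⟨κ, hκd⟩ : ∃ κ, κ = μ • v + r := ⟨_, rfl⟩
  rw [← hκd] at hκ
  -- lower bound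
  have hbound : ∀ y ∈ L.span F, L.B (v + y) (v + y) = 0 →
      L.B κ κ ≤ 2 * μ * L.B κ (v + y) := by
    intro y hy h0
    have hz : μ • y - r ∈ L.NS0 := L.NS0.sub_mem (L.NS0.smul_mem _ (L.span_le F hy)) hr
    have hneg := L.neg _ hz.1 hz.2
    have hk : κ = μ • (v + y) - (μ • y - r) := by rw [hκd, smul_add]; abel
    set z := μ • y - r with hzd
    set w := v + y with hw
    have s1 : L.B z w = L.B w z := L.symm _ _
    have e1 : L.B κ κ = -2 * μ * L.B w z + L.B z z := by
      rw [hk]
      simp only [map_sub, map_smul, LinearMap.sub_apply, LinearMap.smul_apply, smul_eq_mul, h0, s1]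
      ring
    have e2 : L.B κ w = - L.B w z := by
      rw [hk]
      simp only [map_sub, map_smul, LinearMap.sub_apply, LinearMap.smul_apply, smul_eq_mul, h0, s1]
      ring
    rw [e1, e2]
    linarith
  -- descent
  have key : ∀ (n : ℕ) (y : H), y ∈ L.span F → L.B (v + y) (v + y) = 0 →
      2 * μ * L.B κ (v + y) - L.B κ κ ≤ n →
      ∃ y ∈ L.span F, L.B (v + y) (v + y) = 0 ∧ ∀ s, F s → ∀ j, 0 ≤ L.B (v + y) (L.Θ s j) := by
    intro n
    induction n with
    | zero =>
      intro y hy h0 hn
      refine ⟨y, hy, h0, fun s hs j => ?_⟩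
      by_contra hneg
      push Not at hneg
      set t := L.B (v + y) (L.Θ s j) with ht
      have h1 : L.B (v + (y + t • L.Θ s j)) (v + (y + t • L.Θ s j)) = 0 := by
        rw [← add_assoc, ht, L.sq_reflect, h0]
      have h2 := hbound _ (Submodule.add_mem _ hy (Submodule.smul_mem _ t (L.Θ_mem_span hs j))) h1
      rw [← add_assoc, map_add, map_smul, smul_eq_mul] at h2
      have h3 := hκ s j
      have h4 : t * L.B κ (L.Θ s j) < 0 := mul_neg_of_neg_of_pos hneg h3
      have h5 : 2 * μ * (t * L.B κ (L.Θ s j)) < 0 := mul_neg_of_pos_of_neg (by linarith) h4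
      push_cast at hn
      linarith [mul_add (2 * μ) (L.B κ (v + y)) (t * L.B κ (L.Θ s j))]
    | succ n ih =>
      intro y hy h0 hn
      by_cases hdom : ∀ s, F s → ∀ j, 0 ≤ L.B (v + y) (L.Θ s j)
      · exact ⟨y, hy, h0, hdom⟩
      push Not at hdom
      obtain ⟨s, hs, j, hneg⟩ := hdom
      set t := L.B (v + y) (L.Θ s j) with ht
      have h1 : L.B (v + (y + t • L.Θ s j)) (v + (y + t • L.Θ s j)) = 0 := by
        rw [← add_assoc, ht, L.sq_reflect, h0]
      apply ih _ (Submodule.add_mem _ hy (Submodule.smul_mem _ t (L.Θ_mem_span hs j))) h1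
      rw [← add_assoc, map_add, map_smul, smul_eq_mul]
      have h3 := hκ s j
      have h4 : t * L.B κ (L.Θ s j) < 0 := mul_neg_of_neg_of_pos hneg h3
      have h5 : 2 * μ * (t * L.B κ (L.Θ s j)) < 0 := mul_neg_of_pos_of_neg (by linarith) h4
      push_cast at hn
      linarith [mul_add (2 * μ) (L.B κ (v + y)) (t * L.B κ (L.Θ s j))]
  have h0 := hbound 0 (Submodule.zero_mem _) (by simpa using hvv)
  exact key (2 * μ * L.B κ (v + 0) - L.B κ κ).toNat 0 (Submodule.zero_mem _) (by simpa using hvv)
    (by rw [Int.toNat_of_nonneg (by linarith)])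

/-- the index condition only depends on the class modulo `NS0` -/
theorem Index.add {v y : H} {m : ℤ} (h : L.Index v m) (hy : y ∈ L.NS0) : L.Index (v + y) m := by
  intro x hx
  apply h x
  rw [hx, map_add, hy.2, add_zero]

end EllLat

end Vale.Agent.P290.H345
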