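import Vale.Agent.P290.H345.LatticeA
import Vale.Agent.P290.H345.LatticeDom

/-!
# Theorem B: classes with product one with a given component of a reducible fibre
-/

namespace Vale.Agent.P290.H345

namespace EllLat

variable {H : Type*} [AddCommGroup H] {S : Type*} {J : S → Type*} [∀ s, Fintype (J s)]
variable (L : EllLat H S J)

/-- orthogonal decomposition of `e^⊥` up to a factor -/
theorem decomp [Module.Finite ℤ H] [Module.Free ℤ H] {x : H} (hx : L.B x L.e = 0) :
    ∃ D : ℤ, 0 < D ∧ ∃ n ∈ L.NS0, ∃ t ∈ L.T0, D • x = n + t := by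
  classical
  obtain ⟨c, hc, hcc⟩ := L.exists_c
  have hec : L.B L.e c = 1 := by rw [L.symm]; exact hc
  let N' : Submodule ℤ H := L.NS0 ⊓ LinearMap.ker (L.B.flip c)
  have hN' : ∀ y : H, y ∈ N' ↔ y ∈ L.NS0 ∧ L.B y c = 0 := by
    intro y; simp [N', LinearMap.mem_ker]
  have : IsNoetherian ℤ H := isNoetherian_of_isNoetherianRing_of_finite ℤ H
  have : Module.Finite ℤ N' := inferInstance
  have : Module.Free ℤ N' := inferInstance
  obtain ⟨k, ⟨b⟩⟩ : ∃ n, Nonempty (Module.Basis (Fin n) ℤ N') :=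
    ⟨_, ⟨Module.finBasis ℤ N'⟩⟩
  have hcoe : ∀ a : Fin k → ℤ, ((∑ j, a j • b j : N') : H) = ∑ j, a j • (b j : H) := by
    intro a; simp
  obtain ⟨D, hD, hsol⟩ := L.solve (fun j => (b j : H)) (by
    intro a ha
    rw [← hcoe] at ha
    set r : N' := ∑ j, a j • b j with hr
    have hr' := (hN' r).1 r.2
    have hrr : L.B (r : H) r = 0 := by
      have : (r : H) = ∑ j, a j • (b j : H) := by rw [hr, hcoe]
      have e : L.B (r : H) (r : H) = L.B (∑ j, a j • (b j : H)) (r : H) := by rw [← this]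
      rw [e, B_sum_left]
      apply Finset.sum_eq_zero
      intro j _
      rw [L.symm, ha j, mul_zero]
    obtain ⟨m, hm⟩ := L.neg_zero r hr'.1.1 hr'.1.2 hrr
    have h0 : m = 0 := by
      have := hr'.2
      rw [hm, map_smul, LinearMap.smul_apply, hec] at this
      simpa using this
    have hr0 : r = 0 := by
      apply Subtype.ext
      rw [hm, h0]; simp
    intro j
    have h1 := b.linearIndependent
    rw [Fintype.linearIndependent_iff] at h1
    exact h1 a (by rw [← hr, hr0]) j)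
  obtain ⟨a, ha⟩ := hsol (fun j => L.B x (b j))
  set n : H := ∑ j, a j • (b j : H) with hn
  have hnN : n ∈ N' := by rw [hn, ← hcoe]; exact (∑ j, a j • b j : N').2
  refine ⟨D, hD, n, ((hN' n).1 hnN).1, D • x - n, ?_, by abel⟩
  -- orthogonality to `N'`
  have hb : ∀ j, L.B (D • x - n) (b j) = 0 := by
    intro j
    rw [map_sub, map_smul, LinearMap.sub_apply, LinearMap.smul_apply, ha j, smul_eq_mul, sub_self]
  have hN0 : ∀ y : N', L.B (D • x - n) y = 0 := by
    intro y
    rw [← b.sum_repr y, hcoe, map_sum]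
    exact Finset.sum_eq_zero fun j _ => by rw [map_smul, hb j, smul_zero]
  intro y hy
  have hyN : y - L.B y c • L.e ∈ N' := by
    rw [hN']
    refine ⟨L.NS0.sub_mem hy (L.NS0.smul_mem _ L.e_mem), ?_⟩
    simp [hec]
  have h1 := hN0 ⟨_, hyN⟩
  have h2 : L.B (D • x - n) L.e = 0 := by
    rw [map_sub, map_smul, LinearMap.sub_apply, LinearMap.smul_apply, hx, ((hN' n).1 hnN).1.1]
    simp
  simp only at h1
  rw [map_sub, map_smul, h2] at h1
  simpa using h1

/-- two orthogonal transcendental classes with nonzero squares -/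
theorem exists_T0_pair [Module.Finite ℤ H] [Module.Free ℤ H] :
    ∃ t₁ ∈ L.T0, ∃ t₂ ∈ L.T0, L.B t₁ t₂ = 0 ∧ L.B t₁ t₁ ≠ 0 ∧ L.B t₂ t₂ ≠ 0 := by
  classical
  -- the periods of `T0` do not lie on a real line
  have hspan : ∀ a b : ℝ, (∀ t ∈ L.T0, a * (L.σ t).re + b * (L.σ t).im = 0) → a = 0 ∧ b = 0 := by
    intro a b h
    apply L.indep a b
    intro x hx
    obtain ⟨D, hD, n, hn, t, ht, hxt⟩ := L.decomp hx
    have h1 := h t ht
    have h2 : L.σ t = D * L.σ x := by
      have := congrArg L.σ hxt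
      rw [map_zsmul, map_add, hn.2, zero_add] at this
      rw [← this]; simp
    rw [h2] at h1
    have hDr : (D : ℝ) ≠ 0 := by exact_mod_cast hD.ne'
    have h3 : (D : ℝ) * (a * (L.σ x).re + b * (L.σ x).im) = 0 := by
      have e1 : ((D : ℂ) * L.σ x).re = D * (L.σ x).re := by simp
      have e2 : ((D : ℂ) * L.σ x).im = D * (L.σ x).im := by simp
      rw [e1, e2] at h1
      linarith
    exact (mul_eq_zero.1 h3).resolve_left hDr
  -- the radical of `T0`
  have hrad : ∀ t ∈ L.T0, (∀ t' ∈ L.T0, L.B t t' = 0) → L.σ t = 0 := by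
    intro t ht h
    obtain ⟨c, hc, hcc⟩ := L.exists_c
    have hec : L.B L.e c = 1 := by rw [L.symm]; exact hc
    have h1 : ∀ x, L.B x L.e = 0 → L.B t x = 0 := by
      intro x hx
      obtain ⟨D, hD, n, hn, t', ht', hxt⟩ := L.decomp hx
      have h2 : L.B t (D • x) = 0 := by rw [hxt, map_add, ht n hn, h t' ht', add_zero]
      rw [map_smul, smul_eq_mul] at h2
      exact (mul_eq_zero.1 h2).resolve_left hD.ne'
    have h2 : t - L.B t c • L.e = 0 := by
      apply L.nondeg
      intro y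
      have h3 := h1 (y - L.B y L.e • c) (by simp [hc])
      have h4 : L.B L.e y = L.B y L.e := L.symm _ _
      simp only [map_sub, map_smul, smul_eq_mul] at h3
      simp only [map_sub, map_smul, LinearMap.sub_apply, LinearMap.smul_apply, smul_eq_mul, h4]
      linarith
    rw [sub_eq_zero.1 h2, map_zsmul, L.σ_e, smul_zero]
  -- first vector
  obtain ⟨t₁, ht₁, h₁⟩ : ∃ t ∈ L.T0, L.B t t ≠ 0 := by
    by_contra hcon
    push Not at hcon
    have h0 : ∀ t ∈ L.T0, L.σ t = 0 := by
      intro t ht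
      apply hrad t ht
      intro t' ht'
      have h1 := hcon (t + t') (L.T0.add_mem ht ht')
      have h2 := hcon t ht
      have h3 := hcon t' ht'
      have h4 : L.B t' t = L.B t t' := L.symm _ _
      simp only [map_add, LinearMap.add_apply, h2, h3, h4] at h1
      linarith
    have := hspan 1 0 (by intro t ht; simp [h0 t ht])
    exact one_ne_zero this.1
  obtain ⟨t₂, ht₂, h₂, h₃⟩ : ∃ t ∈ L.T0, L.B t₁ t = 0 ∧ L.B t t ≠ 0 := by
    by_contra hcon
    push Not at hcon
    -- the form vanishes on the orthogonal complement of `t₁` in `T0`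
    have h0 : ∀ t ∈ L.T0, L.B t₁ t = 0 → L.σ t = 0 := by
      intro t ht h
      apply hrad t ht
      intro t' ht'
      -- the projection of `t'`
      set u := L.B t₁ t₁ • t' - L.B t₁ t' • t₁ with hu
      have huT : u ∈ L.T0 := L.T0.sub_mem (L.T0.smul_mem _ ht') (L.T0.smul_mem _ ht₁)
      have hu1 : L.B t₁ u = 0 := by
        rw [hu]; simp only [map_sub, map_smul, smul_eq_mul]; ring
      have h1 := hcon (t + u) (L.T0.add_mem ht huT) (by rw [map_add, h, hu1, add_zero])
      have h2 := hcon t ht h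
      have h3 := hcon u huT hu1
      have h4 : L.B u t = L.B t u := L.symm _ _
      simp only [map_add, LinearMap.add_apply, h2, h3, h4] at h1
      have h5 : L.B t u = 0 := by linarith
      have h6 : L.B t t₁ = 0 := by rw [L.symm]; exact h
      rw [hu] at h5
      simp only [map_sub, map_smul, smul_eq_mul, h6, mul_zero, sub_zero] at h5
      exact (mul_eq_zero.1 h5).resolve_left h₁
    -- all periods of `T0` are real multiples of `σ t₁`
    have h1 : ∀ t ∈ L.T0, (L.B t₁ t₁ : ℂ) * L.σ t = L.B t₁ t * L.σ t₁ := by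
      intro t ht
      have h2 := h0 (L.B t₁ t₁ • t - L.B t₁ t • t₁)
        (L.T0.sub_mem (L.T0.smul_mem _ ht) (L.T0.smul_mem _ ht₁))
        (by simp only [map_sub, map_smul, smul_eq_mul]; ring)
      rw [map_sub, map_zsmul, map_zsmul, sub_eq_zero] at h2
      simpa using h2
    by_cases hz : L.σ t₁ = 0
    · have := hspan 1 0 (by
        intro t ht
        have h2 := h1 t ht
        rw [hz, mul_zero] at h2
        have h3 : L.σ t = 0 := (mul_eq_zero.1 h2).resolve_left (by exact_mod_cast h₁)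
        simp [h3])
      exact one_ne_zero this.1
    · have := hspan (L.σ t₁).im (-(L.σ t₁).re) (by
        intro t ht
        have h2 := h1 t ht
        have hre := congrArg Complex.re h2
        have him := congrArg Complex.im h2
        simp at hre him
        have h3 : (L.B t₁ t₁ : ℝ) ≠ 0 := by exact_mod_cast h₁
        apply mul_left_cancel₀ h3
        have e : (L.B t₁ t₁ : ℝ) * ((L.σ t₁).im * (L.σ t).re + -(L.σ t₁).re * (L.σ t).im)
          = (L.σ t₁).im * ((L.B t₁ t₁ : ℝ) * (L.σ t).re)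
            - (L.σ t₁).re * ((L.B t₁ t₁ : ℝ) * (L.σ t).im) := by ring
        rw [e, hre, him]
        ring)
      apply hz
      apply Complex.ext
      · simpa using this.2
      · simpa using this.1
  exact ⟨t₁, ht₁, t₂, ht₂, h₂, h₁, h₃⟩

/-- a class with product one with `e` and with a given component -/
theorem exists_psi [Module.Free ℤ H] (s : S) (i : J s) :
    ∃ ψ, L.B ψ L.e = 1 ∧ L.B ψ (L.Θ s i) = 1 := by
  obtain ⟨c, hc, hcc⟩ := L.exists_c
  have hec : L.B L.e c = 1 := by rw [L.symm]; exact hc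
  -- the image of `e^⊥` under the product with the component
  let I : Submodule ℤ ℤ := L.perp.map (L.B (L.Θ s i))
  obtain ⟨d, hd⟩ : ∃ d : ℤ, I = Submodule.span ℤ {d} :=
    (IsPrincipalIdealRing.principal (show Ideal ℤ from I)).principal
  have hdvd : ∀ y, L.B y L.e = 0 → d ∣ L.B (L.Θ s i) y := by
    intro y hy
    have : L.B (L.Θ s i) y ∈ I := ⟨y, L.mem_perp.2 hy, rfl⟩
    rw [hd, Submodule.mem_span_singleton] at this
    obtain ⟨a, ha⟩ := this
    exact ⟨a, by rw [← ha, smul_eq_mul, mul_comm]⟩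
  set w := L.Θ s i - L.B (L.Θ s i) c • L.e with hw
  have hwd : ∀ z, d ∣ L.B w z := by
    intro z
    have h1 := hdvd (z - L.B z L.e • c) (by simp [hc])
    have h2 : L.B w z = L.B (L.Θ s i) (z - L.B z L.e • c) := by
      have h3 : L.B L.e z = L.B z L.e := L.symm _ _
      rw [hw]
      simp only [map_sub, map_smul, LinearMap.sub_apply, LinearMap.smul_apply, smul_eq_mul, h3]
      ring
    rw [h2]; exact h1
  have hww : L.B w w = -2 := by
    have h1 : L.B L.e (L.Θ s i) = 0 := by rw [L.symm]; exact L.Θ_e s i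
    rw [hw]
    simp [L.Θ_sq, L.Θ_e, L.e_sq, h1]
  have hd0 : d ≠ 0 := by
    rintro rfl
    have : w = 0 := L.nondeg fun y => by simpa using hwd y
    rw [this] at hww
    simp at hww
  obtain ⟨x, hx⟩ := L.exists_smul_of_dvd hd0 hwd
  have hunit : IsUnit d := by
    obtain ⟨k, hk⟩ := L.even x
    rw [hx] at hww
    simp only [map_smul, LinearMap.smul_apply, smul_eq_mul, hk] at hww
    have : d * (-(d * k)) = 1 := by linarith
    exact IsUnit.of_mul_eq_one _ this
  have h1 : (1 : ℤ) ∈ I := by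
    rw [hd, Submodule.mem_span_singleton]
    rcases Int.isUnit_iff.1 hunit with h | h
    · exact ⟨1, by rw [h]; rfl⟩
    · exact ⟨-1, by rw [h]; rfl⟩
  obtain ⟨u, hu, hu1⟩ := h1
  refine ⟨c + (1 - L.B c (L.Θ s i)) • u, ?_, ?_⟩
  · simp [hc, L.mem_perp.1 hu]
  · have h2 : L.B u (L.Θ s i) = 1 := by rw [L.symm]; exact hu1
    simp [h2]

/-- a quadratic equation modulo a prime -/
theorem exists_quad (p : ℕ) [Fact p.Prime] (hp : p ≠ 2) (α β γ : ZMod p) (hα : α ≠ 0)
    (hβ : β ≠ 0) : ∃ A B : ZMod p, α * A ^ 2 + β * B ^ 2 = γ := by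
  have hcard : Fintype.card (ZMod p) % 2 = 1 := by
    rw [ZMod.card]
    rcases Nat.Prime.eq_two_or_odd (Fact.out : p.Prime) with h | h
    · exact absurd h hp
    · exact h
  obtain ⟨A, B, h⟩ := FiniteField.exists_root_sum_quadratic
    (f := Polynomial.C α * Polynomial.X ^ 2 + Polynomial.C (-γ))
    (g := Polynomial.C β * Polynomial.X ^ 2 + Polynomial.C 0)
    (by
      compute_degree!)
    (by
      compute_degree!) hcard
  refine ⟨A, B, ?_⟩
  simp at h
  linear_combination h

/-- the class `θ`, zero on the component `i` and positive on the others -/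
theorem exists_theta (s : S) (i : J s) {ψ : H} (h1 : L.B ψ L.e = 1) :
    ∃ θ D, 0 < D ∧ L.B θ (L.Θ s i) = 0 ∧ (∀ j, j ≠ i → L.B θ (L.Θ s j) = D) ∧
      0 < L.B θ L.e := by
  classical
  obtain ⟨D, hD, hsol⟩ := L.fibre_solve s i
  obtain ⟨a1, ha1⟩ := hsol (fun _ => 1)
  obtain ⟨a2, ha2⟩ := hsol (fun j => L.B ψ (L.Θ s j))
  set M : ℤ := ∑ j ∈ Finset.univ.erase i, L.mult s j with hM
  -- there is another component
  have hne : (Finset.univ.erase i : Finset (J s)).Nonempty := by
    by_contra hne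
    rw [Finset.not_nonempty_iff_eq_empty] at hne
    have h2 := L.sum_mult s
    rw [← Finset.add_sum_erase _ _ (Finset.mem_univ i), hne, Finset.sum_empty, add_zero] at h2
    have h3 : L.B (L.Θ s i) L.e = 0 := L.Θ_e s i
    rw [← h2, map_smul, L.Θ_sq, smul_eq_mul] at h3
    have := L.mult_pos s i
    omega
  have hM0 : 0 < M := Finset.sum_pos (fun j _ => L.mult_pos s j) hne
  set θ := (M * D) • ψ + ∑ j, a1 j • L.Θ s j - M • ∑ j, a2 j • L.Θ s j with hθ
  have hother : ∀ j, j ≠ i → L.B θ (L.Θ s j) = D := by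
    intro j hj
    rw [hθ]
    simp only [map_add, map_sub, map_smul, LinearMap.add_apply, LinearMap.sub_apply,
      LinearMap.smul_apply]
    rw [ha1 j hj, ha2 j hj]
    simp
    ring
  have he : L.B θ L.e = M * D := by
    rw [hθ]
    have e2 : ∀ a : J s → ℤ, L.B (∑ j, a j • L.Θ s j) L.e = 0 := by
      intro a
      rw [B_sum_left]
      exact Finset.sum_eq_zero fun j _ => by rw [L.Θ_e]; simp
    simp only [map_add, map_sub, map_smul, LinearMap.add_apply, LinearMap.sub_apply,
      LinearMap.smul_apply]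
    rw [e2, e2]
    simp [h1]
  refine ⟨θ, D, hD, ?_, hother, by rw [he]; exact mul_pos hM0 hD⟩
  have hsum : ∑ j, L.mult s j * L.B θ (L.Θ s j) = M * D := by
    rw [← he, ← L.sum_mult s, map_sum]
    exact Finset.sum_congr rfl fun j _ => by simp
  rw [← Finset.add_sum_erase _ _ (Finset.mem_univ i)] at hsum
  have h3 : ∑ x ∈ Finset.univ.erase i, L.mult s x * L.B θ (L.Θ s x) = M * D := by
    rw [hM, Finset.sum_mul]
    exact Finset.sum_congr rfl fun x hx => by rw [hother x (Finset.ne_of_mem_erase hx)]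
  rw [h3] at hsum
  have h4 : L.mult s i * L.B θ (L.Θ s i) = 0 := by linarith
  exact (mul_eq_zero.1 h4).resolve_left (L.mult_pos s i).ne'

/-- **Theorem B** before the positivity on the other fibres -/
theorem theoremB_aux [Module.Finite ℤ H] [Module.Free ℤ H] (s : S) (i : J s) :
    ∃ (v : H) (m : ℕ), m.Prime ∧ L.B v v = 0 ∧ L.B v L.e = m ∧ L.B v (L.Θ s i) = 1 ∧
      (∀ j, 0 < L.B v (L.Θ s j)) ∧ L.Index v m := by
  classical
  obtain ⟨ψ, hψe, hψi⟩ := L.exists_psi s i
  obtain ⟨θ, D, hD, hθi, hθj, hθe⟩ := L.exists_theta s i hψe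
  set g := L.B θ L.e with hg
  have hρe : L.B (g • ψ - θ) L.e = 0 := by simp [hψe, hg]
  have hρi : L.B (g • ψ - θ) (L.Θ s i) = g := by simp [hψi, hθi]
  obtain ⟨D', hD', n, hn, t, ht, hnt⟩ := L.decomp hρe
  have hni : L.B n (L.Θ s i) = D' * g := by
    have h1 := congrArg (fun x => L.B x (L.Θ s i)) hnt
    simp only [map_smul, LinearMap.smul_apply, hρi, map_add, LinearMap.add_apply,
      ht _ (L.Θ_mem s i), add_zero, smul_eq_mul] at h1
    exact h1.symm
  have hnn : L.B n n < 0 := by
    rcases lt_or_eq_of_le (L.neg n hn.1 hn.2) with h | h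
    · exact h
    · exfalso
      obtain ⟨k, hk⟩ := L.neg_zero n hn.1 hn.2 h
      rw [hk, map_smul, LinearMap.smul_apply, L.symm, L.Θ_e, smul_zero] at hni
      have := mul_pos hD' hθe
      omega
  obtain ⟨t₁, ht₁, t₂, ht₂, h12, h11, h22⟩ := L.exists_T0_pair
  -- the prime
  set G := g * D' with hG
  have hG0 : 0 < G := mul_pos hθe hD'
  obtain ⟨K, hK⟩ : ∃ K : ℕ, ∀ j, (L.B ψ (L.Θ s j)).natAbs ≤ K :=
    ⟨∑ j, (L.B ψ (L.Θ s j)).natAbs, fun j =>
      Finset.single_le_sum (f := fun j => (L.B ψ (L.Θ s j)).natAbs)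
        (fun _ _ => Nat.zero_le _) (Finset.mem_univ j)⟩
  obtain ⟨m, hmp, hmbig, hmod⟩ := Nat.exists_prime_gt_modEq_one
    (k := g.toNat) (2 + G.natAbs + (L.B t₁ t₁).natAbs + (L.B t₂ t₂).natAbs + (L.B n n).natAbs
      + (g * (K + 1)).natAbs + 1) (by omega)
  have : Fact m.Prime := ⟨hmp⟩
  -- `m = 1 + k g`
  obtain ⟨k, hk⟩ : ∃ k : ℤ, (m : ℤ) = 1 + k * g := by
    have h1 : (g.toNat : ℤ) ∣ (m : ℤ) - 1 := by
      have := (Nat.modEq_iff_dvd.1 hmod.symm)
      simpa using this
    rw [Int.toNat_of_nonneg hθe.le] at h1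
    obtain ⟨k, hk⟩ := h1
    exact ⟨k, by linarith [mul_comm g k]⟩
  have hkK : (K : ℤ) < k := by
    by_contra hcon
    push Not at hcon
    have h1 : k * g ≤ K * g := by
      exact mul_le_mul_of_nonneg_right hcon hθe.le
    have h2 : ((g * (K + 1)).natAbs : ℤ) = g * (K + 1) := by
      rw [Int.natCast_natAbs, abs_of_nonneg]
      exact mul_nonneg hθe.le (by positivity)
    have h3 : ((g * (K + 1)).natAbs : ℤ) + 1 < m := by
      have : (g * (K + 1)).natAbs + 1 < m := by omega
      exact_mod_cast this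
    rw [h2] at h3
    nlinarith
  -- invertibility modulo `m`
  have hsmall : ∀ a : ℤ, a ≠ 0 → a.natAbs < m → ((a : ℤ) : ZMod m) ≠ 0 := by
    intro a ha ham h
    rw [ZMod.intCast_zmod_eq_zero_iff_dvd] at h
    have := Int.natAbs_dvd_natAbs.2 h
    simp only [Int.natAbs_natCast] at this
    exact absurd (Nat.le_of_dvd (Int.natAbs_pos.2 ha) this) (by omega)
  have hGm : (G : ZMod m) ≠ 0 := hsmall G hG0.ne' (by omega)
  have hαm : ((L.B t₁ t₁ : ℤ) : ZMod m) ≠ 0 := hsmall _ h11 (by omega)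
  have hβm : ((L.B t₂ t₂ : ℤ) : ZMod m) ≠ 0 := hsmall _ h22 (by omega)
  have hnm : ((L.B n n : ℤ) : ZMod m) ≠ 0 := hsmall _ hnn.ne (by omega)
  obtain ⟨A, B, hAB⟩ := exists_quad m (by omega) _ _ (-((L.B n n : ℤ) : ZMod m)) hαm hβm
  -- lifts
  obtain ⟨A', rfl⟩ := ZMod.intCast_surjective A
  obtain ⟨B', rfl⟩ := ZMod.intCast_surjective B
  obtain ⟨G', hG'⟩ := ZMod.intCast_surjective ((G : ZMod m)⁻¹)
  obtain ⟨p, hp⟩ : ∃ p : ℤ, G * G' = 1 + m * p := by
    have h1 : ((G * G' - 1 : ℤ) : ZMod m) = 0 := by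
      push_cast
      rw [hG', mul_inv_cancel₀ hGm, sub_self]
    rw [ZMod.intCast_zmod_eq_zero_iff_dvd] at h1
    obtain ⟨p, hp⟩ := h1
    exact ⟨p, by linarith⟩
  set w : H := (G' * A') • t₁ + (G' * B') • t₂ - G' • t with hw
  have hwT : w ∈ L.T0 := by
    rw [hw]
    exact L.T0.sub_mem (L.T0.add_mem (L.T0.smul_mem _ ht₁) (L.T0.smul_mem _ ht₂))
      (L.T0.smul_mem _ ht)
  set x : H := ψ + k • θ + w with hx
  -- the congruence
  set y : H := n + A' • t₁ + B' • t₂ with hy
  set h : H := D' • θ + p • (A' • t₁ + B' • t₂ - t) with hh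
  have hcong : G • x = y + (m : ℤ) • h := by
    -- `g (ψ + k θ) = ρ + m θ`
    have e1 : g • (ψ + k • θ) = (g • ψ - θ) + (m : ℤ) • θ := by
      rw [hk, smul_add, ← mul_smul, add_smul, one_smul, mul_comm g k]
      abel
    have e2 : G • (ψ + k • θ) = n + t + (m * D') • θ := by
      rw [hG, mul_comm, mul_smul, e1, smul_add, hnt, ← mul_smul, mul_comm D' (m : ℤ)]
    have e3 : G • w = (1 + m * p) • (A' • t₁ + B' • t₂ - t) := by
      rw [← hp, hw]
      simp only [smul_sub, smul_add, ← mul_smul, mul_assoc]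
    rw [hx, smul_add, e2, e3, hy, hh]
    rw [add_smul, one_smul, smul_add, ← mul_smul, ← mul_smul]
    abel
  have hny1 : L.B n t₁ = 0 := by rw [L.symm]; exact ht₁ n hn
  have hny2 : L.B n t₂ = 0 := by rw [L.symm]; exact ht₂ n hn
  have h1n : L.B t₁ n = 0 := ht₁ n hn
  have h2n : L.B t₂ n = 0 := ht₂ n hn
  have h21 : L.B t₂ t₁ = 0 := by rw [L.symm]; exact h12
  have hyy : L.B y y = L.B n n + A' ^ 2 * L.B t₁ t₁ + B' ^ 2 * L.B t₂ t₂ := by
    rw [hy]
    simp only [map_add, map_smul, LinearMap.add_apply, LinearMap.smul_apply, smul_eq_mul, hny1,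
      hny2, h1n, h2n, h21, h12]
    ring
  have hyym : (m : ℤ) ∣ L.B y y := by
    rw [← ZMod.intCast_zmod_eq_zero_iff_dvd, hyy]
    push_cast
    linear_combination hAB
  have hxxm : (m : ℤ) ∣ L.B x x := by
    have e1 : G * G * L.B x x = L.B (G • x) (G • x) := by
      simp only [map_smul, LinearMap.smul_apply, smul_eq_mul]; ring
    have e2 : (m : ℤ) ∣ G * G * L.B x x := by
      rw [e1, hcong]
      simp only [map_add, map_smul, LinearMap.add_apply, LinearMap.smul_apply, smul_eq_mul]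
      exact dvd_add (dvd_add hyym (dvd_mul_right _ _)) (dvd_mul_right _ _)
    have hpr : Prime (m : ℤ) := Nat.prime_iff_prime_int.1 hmp
    have hnG : ¬ (m : ℤ) ∣ G := by
      rw [← ZMod.intCast_zmod_eq_zero_iff_dvd]; exact hGm
    rcases hpr.dvd_or_dvd e2 with h' | h'
    · rcases hpr.dvd_or_dvd h' with h'' | h'' <;> exact absurd h'' hnG
    · exact h'
  -- the final class
  obtain ⟨q, hq⟩ : ∃ q, L.B x x = 2 * m * q := by
    have h2 : (2 : ℤ) ∣ L.B x x := even_iff_two_dvd.1 (L.even x)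
    have hcop : IsCoprime (2 : ℤ) (m : ℤ) := by
      have := (Nat.coprime_primes Nat.prime_two hmp).2 (by omega)
      exact_mod_cast Nat.isCoprime_iff_coprime.2 this
    exact hcop.mul_dvd h2 hxxm
  have hxe : L.B x L.e = m := by
    rw [hx]
    simp only [map_add, map_smul, LinearMap.add_apply, LinearMap.smul_apply, smul_eq_mul, hψe,
      L.T0_e hwT, ← hg, hk]
    ring
  have hwΘ : ∀ j, L.B w (L.Θ s j) = 0 := fun j => hwT _ (L.Θ_mem s j)
  have heΘ : ∀ j, L.B L.e (L.Θ s j) = 0 := fun j => by rw [L.symm]; exact L.Θ_e s j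
  have hvi : L.B (x - q • L.e) (L.Θ s i) = 1 := by
    rw [hx]
    simp only [map_sub, map_add, map_smul, LinearMap.sub_apply, LinearMap.add_apply,
      LinearMap.smul_apply, smul_eq_mul, hψi, hθi, hwΘ, heΘ]
    ring
  have hve : L.B (x - q • L.e) L.e = m := by
    rw [map_sub, LinearMap.sub_apply, hxe, map_smul, LinearMap.smul_apply, L.e_sq]; simp
  refine ⟨x - q • L.e, m, hmp, ?_, hve, hvi, ?_, ?_⟩
  · have hex : L.B L.e x = m := by rw [L.symm]; exact hxe
    simp only [map_sub, map_smul, LinearMap.sub_apply, LinearMap.smul_apply, smul_eq_mul, hxe, hex,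
      L.e_sq, hq]
    ring
  · intro j
    by_cases hj : j = i
    · rw [hj, hvi]; exact one_pos
    · rw [hx]
      simp only [map_sub, map_add, map_smul, LinearMap.sub_apply, LinearMap.add_apply,
        LinearMap.smul_apply, smul_eq_mul, hθj j hj, hwΘ, heΘ]
      have h1 := hK j
      have h2 : -(K : ℤ) ≤ L.B ψ (L.Θ s j) := by omega
      nlinarith
  · -- index
    have hpr : Prime (m : ℤ) := Nat.prime_iff_prime_int.1 hmp
    have hv1 : G * L.B (x - q • L.e) t₁ = A' * L.B t₁ t₁ + m * L.B h t₁ := by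
      have e1 : L.B L.e t₁ = 0 := by rw [L.symm]; exact L.T0_e ht₁
      have e2 := congrArg (fun z => L.B z t₁) hcong
      simp only [map_add, map_smul, LinearMap.add_apply, LinearMap.smul_apply, smul_eq_mul] at e2
      rw [map_sub, LinearMap.sub_apply, map_smul, LinearMap.smul_apply, e1, smul_zero, sub_zero,
        e2, hy]
      simp only [map_add, map_smul, LinearMap.add_apply, LinearMap.smul_apply, smul_eq_mul, hny1,
        h21]
      ring
    have hv2 : G * L.B (x - q • L.e) t₂ = B' * L.B t₂ t₂ + m * L.B h t₂ := by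
      have e1 : L.B L.e t₂ = 0 := by rw [L.symm]; exact L.T0_e ht₂
      have e2 := congrArg (fun z => L.B z t₂) hcong
      simp only [map_add, map_smul, LinearMap.add_apply, LinearMap.smul_apply, smul_eq_mul] at e2
      rw [map_sub, LinearMap.sub_apply, map_smul, LinearMap.smul_apply, e1, smul_zero, sub_zero,
        e2, hy]
      simp only [map_add, map_smul, LinearMap.add_apply, LinearMap.smul_apply, smul_eq_mul, hny2,
        h12]
      ring
    by_cases hA : (A' : ZMod m) = 0
    · have hB : (B' : ZMod m) ≠ 0 := by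
        intro hB
        rw [hA, hB] at hAB
        apply hnm
        linear_combination hAB
      apply L.index_of_T0 hmp hve ht₂
      intro hdvd
      have h1 : (m : ℤ) ∣ B' * L.B t₂ t₂ := by
        have h2 : B' * L.B t₂ t₂ = G * L.B (x - q • L.e) t₂ - m * L.B h t₂ := by linarith
        rw [h2]
        exact dvd_sub (Dvd.dvd.mul_left hdvd G) (Dvd.intro _ rfl)
      rw [← ZMod.intCast_zmod_eq_zero_iff_dvd] at h1
      push_cast at h1
      rcases mul_eq_zero.1 h1 with h2 | h2
      · exact hB h2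
      · exact hβm h2
    · apply L.index_of_T0 hmp hve ht₁
      intro hdvd
      have h1 : (m : ℤ) ∣ A' * L.B t₁ t₁ := by
        have h2 : A' * L.B t₁ t₁ = G * L.B (x - q • L.e) t₁ - m * L.B h t₁ := by linarith
        rw [h2]
        exact dvd_sub (Dvd.dvd.mul_left hdvd G) (Dvd.intro _ rfl)
      rw [← ZMod.intCast_zmod_eq_zero_iff_dvd] at h1
      push_cast at h1
      rcases mul_eq_zero.1 h1 with h2 | h2
      · exact hA h2
      · exact hαm h2

/-- **Theorem A** (irreducible singular fibres): a dominant isotropic class of fibre degree two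
such that the corresponding twist has index two. -/
theorem theoremA [Module.Finite ℤ H] [Module.Free ℤ H] [Finite S] :
    ∃ v, L.B v v = 0 ∧ L.B v L.e = 2 ∧ (∀ s j, 0 ≤ L.B v (L.Θ s j)) ∧ L.Index v 2 := by
  obtain ⟨v, hvv, hve, hind⟩ := L.theoremA_aux
  obtain ⟨y, hy, h0, hdom⟩ := L.dominance (fun _ => True) hvv (by rw [hve]; norm_num)
  have hyN := L.span_le _ hy
  exact ⟨v + y, h0, by rw [map_add, LinearMap.add_apply, hve, hyN.1, add_zero],
    fun s j => hdom s trivial j, hind.add L hyN⟩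

/-- **Theorem B** (reducible fibres): for a component of a reducible fibre there is a dominant
isotropic class of prime fibre degree `m`, with product one with the given component, positive on
all components of the given fibre, and such that the corresponding twist has index `m`. -/
theorem theoremB [Module.Finite ℤ H] [Module.Free ℤ H] [Finite S] (s : S) (i : J s) :
    ∃ (v : H) (m : ℕ), m.Prime ∧ L.B v v = 0 ∧ L.B v L.e = m ∧ L.B v (L.Θ s i) = 1 ∧
      (∀ j, 0 < L.B v (L.Θ s j)) ∧ (∀ s j, 0 ≤ L.B v (L.Θ s j)) ∧ L.Index v m := by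
  obtain ⟨v, m, hm, hvv, hve, hvi, hvj, hind⟩ := L.theoremB_aux s i
  obtain ⟨y, hy, h0, hdom⟩ := L.dominance (fun t => t ≠ s) hvv
    (by rw [hve]; exact_mod_cast hm.pos)
  have hyN := L.span_le _ hy
  have hys : ∀ j, L.B (v + y) (L.Θ s j) = L.B v (L.Θ s j) := by
    intro j
    rw [map_add, LinearMap.add_apply, L.span_orth hy (by simp) j, add_zero]
  refine ⟨v + y, m, hm, h0, by rw [map_add, LinearMap.add_apply, hve, hyN.1, add_zero],
    by rw [hys]; exact hvi, fun j => by rw [hys]; exact hvj j, fun t j => ?_, hind.add L hyN⟩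
  by_cases ht : t = s
  · subst ht
    rw [hys]; exact (hvj j).le
  · exact hdom t ht j

end EllLat

end Vale.Agent.P290.H345
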