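import Mathlib

/-!
# Abstract lattice data of an elliptic K3 surface

`EllLat H S J`: an even unimodular lattice `H` with a primitive isotropic vector `e` (the fibre
class), a period functional `σ`, and the classes `Θ s j` of the components of the reducible fibres.
-/

namespace Vale.Agent.P290.H345

/-- Lattice data of an elliptic fibration (see the header). -/
structure EllLat (H : Type*) [AddCommGroup H] (S : Type*) (J : S → Type*)
    [∀ s, Fintype (J s)] where
  /-- intersection form -/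
  B : H →ₗ[ℤ] H →ₗ[ℤ] ℤ
  symm : ∀ x y, B x y = B y x
  unimod : ∀ f : H →ₗ[ℤ] ℤ, ∃ x, ∀ y, B x y = f y
  even : ∀ x, Even (B x x)
  /-- the fibre class -/
  e : H
  e_sq : B e e = 0
  e_prim : ∃ c, B c e = 1
  /-- periods of the holomorphic two form -/
  σ : H →+ ℂ
  σ_e : σ e = 0
  indep : ∀ a b : ℝ, (∀ x, B x e = 0 → a * (σ x).re + b * (σ x).im = 0) → a = 0 ∧ b = 0
  neg : ∀ x, B x e = 0 → σ x = 0 → B x x ≤ 0
  neg_zero : ∀ x, B x e = 0 → σ x = 0 → B x x = 0 → ∃ k : ℤ, x = k • e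
  /-- components of the reducible fibres -/
  Θ : (s : S) → J s → H
  /-- multiplicities -/
  mult : (s : S) → J s → ℤ
  mult_pos : ∀ s j, 0 < mult s j
  sum_mult : ∀ s, ∑ j, mult s j • Θ s j = e
  Θ_e : ∀ s j, B (Θ s j) e = 0
  σ_Θ : ∀ s j, σ (Θ s j) = 0
  Θ_sq : ∀ s j, B (Θ s j) (Θ s j) = -2
  Θ_Θ : ∀ s j k, j ≠ k → 0 ≤ B (Θ s j) (Θ s k)
  Θ_disj : ∀ s t j k, s ≠ t → B (Θ s j) (Θ t k) = 0
  /-- a nonempty nonnegative combination of components of one fibre is not zero -/
  pos : ∀ s (n : J s → ℤ), (∀ j, 0 ≤ n j) → ∑ j, n j • Θ s j = 0 → ∀ j, n j = 0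

namespace EllLat

variable {H : Type*} [AddCommGroup H] {S : Type*} {J : S → Type*} [∀ s, Fintype (J s)]
variable (L : EllLat H S J)

/-- classes of divisors contained in fibres (up to torsion) -/
def NS0 : Submodule ℤ H where
  carrier := {x | L.B x L.e = 0 ∧ L.σ x = 0}
  add_mem' := by
    rintro a b ⟨ha, ha'⟩ ⟨hb, hb'⟩
    refine ⟨?_, ?_⟩
    · simp [ha, hb]
    · simp [ha', hb']
  zero_mem' := by simp
  smul_mem' := by
    rintro k a ⟨ha, ha'⟩
    refine ⟨?_, ?_⟩
    · simp [ha]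
    · simp [ha']

theorem mem_NS0 {x : H} : x ∈ L.NS0 ↔ L.B x L.e = 0 ∧ L.σ x = 0 := Iff.rfl

theorem e_mem : L.e ∈ L.NS0 := ⟨L.e_sq, L.σ_e⟩

theorem Θ_mem (s : S) (j : J s) : L.Θ s j ∈ L.NS0 := ⟨L.Θ_e s j, L.σ_Θ s j⟩

/-- the orthogonal complement of `NS0` -/
def T0 : Submodule ℤ H where
  carrier := {t | ∀ x ∈ L.NS0, L.B t x = 0}
  add_mem' := by
    intro a b ha hb x hx
    simp [ha x hx, hb x hx]
  zero_mem' := by intro x _; simp
  smul_mem' := by
    intro k a ha x hx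
    simp [ha x hx]

theorem mem_T0 {t : H} : t ∈ L.T0 ↔ ∀ x ∈ L.NS0, L.B t x = 0 := Iff.rfl

theorem T0_e {t : H} (ht : t ∈ L.T0) : L.B t L.e = 0 := ht _ L.e_mem

/-- the index condition for a class `v` with `v.e = m` -/
def Index (v : H) (m : ℤ) : Prop := ∀ h, (m : ℂ) * L.σ h = L.σ v * (L.B h L.e : ℂ) → m ∣ L.B h L.e

theorem nondeg [Module.Free ℤ H] {x : H} (hx : ∀ y, L.B x y = 0) : x = 0 := by
  classical
  by_contra hne
  let b := Module.Free.chooseBasis ℤ H
  apply hne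
  apply b.ext_elem
  intro i
  obtain ⟨z, hz⟩ := L.unimod (b.coord i)
  have := hz x
  rw [L.symm, hx z] at this
  simpa using this.symm

/-- a class whose products are all divisible by `d` is divisible by `d` -/
theorem exists_smul_of_dvd [Module.Free ℤ H] {d : ℤ} (hd : d ≠ 0) {w : H}
    (h : ∀ z, d ∣ L.B w z) : ∃ x, w = d • x := by
  let g : H →ₗ[ℤ] ℤ :=
    { toFun := fun z => L.B w z / d
      map_add' := by
        intro x y
        rw [map_add, Int.add_ediv_of_dvd_left (h x)]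
      map_smul' := by
        intro k x
        rw [map_smul, smul_eq_mul, Int.mul_ediv_assoc _ (h x)]
        rfl }
  obtain ⟨x, hx⟩ := L.unimod g
  refine ⟨x, ?_⟩
  rw [← sub_eq_zero]
  apply L.nondeg
  intro y
  have : L.B w y = d * (L.B w y / d) := (Int.mul_ediv_cancel' (h y)).symm
  have h2 : L.B x y = L.B w y / d := hx y
  simp only [map_sub, map_smul, LinearMap.sub_apply, LinearMap.smul_apply, smul_eq_mul]
  rw [h2, ← this, sub_self]

/-- If the period relation fails modulo `m`, then the index is exactly `m`. -/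
theorem index_aux {v : H} {m : ℕ} (hm : m.Prime) (hv : L.B v L.e = m)
    (h : ∀ n ∈ L.NS0, ∀ h, v ≠ n + (m : ℤ) • h) : L.Index v m := by
  intro h' hh
  by_contra hnd
  have hcop : IsCoprime (m : ℤ) (L.B h' L.e) := by
    rw [Int.isCoprime_iff_gcd_eq_one]
    have := (Nat.Prime.coprime_iff_not_dvd hm (n := (L.B h' L.e).natAbs)).2 (by
      intro h1
      exact hnd (Int.natCast_dvd.2 h1))
    simpa [Int.gcd, Nat.Coprime] using this
  obtain ⟨b, a, hab⟩ := hcop
  -- h'' = a h' + b v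
  set h2 : H := a • h' + b • v with hh2
  have h2e : L.B h2 L.e = 1 := by
    rw [hh2]
    simp [hv]
    linarith
  have h2σ : (m : ℂ) * L.σ h2 = L.σ v := by
    rw [hh2]
    have e1 : L.σ (a • h' + b • v) = a * L.σ h' + b * L.σ v := by
      simp
    rw [e1]
    have : (m : ℂ) * (a * L.σ h' + b * L.σ v) = a * ((m : ℂ) * L.σ h') + b * m * L.σ v := by ring
    rw [this]
    have hh' : (m : ℂ) * L.σ h' = L.σ v * (L.B h' L.e : ℂ) := by simpa using hh
    rw [hh']
    have hab' : (b : ℂ) * m + a * (L.B h' L.e : ℂ) = 1 := by exact_mod_cast hab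
    linear_combination (L.σ v) * hab'
  refine h (v - (m : ℤ) • h2) ⟨?_, ?_⟩ h2 (by abel)
  · simp [hv, h2e]
  · simp only [map_sub, map_zsmul]
    rw [sub_eq_zero, ← h2σ]
    simp

theorem index_of_T0 {v : H} {m : ℕ} (hm : m.Prime) (hv : L.B v L.e = m)
    {t : H} (ht : t ∈ L.T0) (hvt : ¬ (m : ℤ) ∣ L.B v t) : L.Index v m := by
  apply L.index_aux hm hv
  intro n hn h hvn
  apply hvt
  rw [hvn]
  have : L.B n t = 0 := by rw [L.symm]; exact ht n hn
  simp [this]

end EllLat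

end Vale.Agent.P290.H345
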